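import Vale.Agent.P252.R.Spec
import Vale.Agent.P252.H402.ABP
import Vale.Agent.P252.H747.Sections

/-!
# B2: integral over the gradient image
-/

open scoped ContDiff Topology ENNReal
open MeasureTheory Set Filter

namespace Vale.Agent.P252.R

variable {n : ℕ}

theorem norm_le_sum_abs (q : En n) : ‖q‖ ≤ ∑ i, |q i| := by
  conv_lhs => rw [H402.euc_sum q]
  refine (norm_sum_le _ _).trans (Finset.sum_le_sum fun i _ => ?_)
  rw [norm_smul, PiLp.norm_single, Real.norm_eq_abs, norm_one, mul_one]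

theorem sum_pd_eq (u : En n → ℝ) (x v : En n) : ∑ i, pd i u x * v i = fderiv ℝ u x v := by
  conv_rhs => rw [H402.euc_sum v]
  rw [map_sum]
  refine Finset.sum_congr rfl fun i _ => ?_
  rw [map_smul, smul_eq_mul, mul_comm]
  rfl

/-- Lower bound of `Lam` from a box around `(X, zX)` in the epigraph. -/
theorem Lam_ge {Ω : Set (En n)} {u : En n → ℝ} (h : SC Ω u) (hcv : Convex ℝ Ω) {X : En n}
    {zX r0 : ℝ} {r : Fin n → ℝ} (hr0 : 0 < r0) (hr : ∀ i, 0 < r i)
    (hbox : ∀ (d : En n) (s : ℝ), (∀ i, |d i| ≤ r i) → |s| ≤ r0 → (X + d, zX + s) ∈ epi Ω u)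
    {x : En n} (hx : x ∈ Ω) : r0 + ∑ i, r i * |pd i u x| ≤ Lam u X zX x := by
  let d : En n := WithLp.toLp 2 fun i => r i * SignType.sign (pd i u x)
  have hd : ∀ i, |d i| ≤ r i := by
    intro i
    show |r i * (SignType.sign (pd i u x) : ℝ)| ≤ r i
    rw [abs_mul, abs_of_pos (hr i)]
    refine mul_le_of_le_one_right (hr i).le ?_
    rcases SignType.trichotomy (SignType.sign (pd i u x)) with h | h | h <;> simp [h]
  obtain ⟨h1, h2⟩ := hbox d (-r0) hd (by rw [abs_neg, abs_of_pos hr0])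
  have h3 := Vale.Agent.P252.tangent_le h.op hcv h.sm h.pos hx h1
  have h4 : fderiv ℝ u x (X + d - x) = ∑ i, pd i u x * (X i - x i) + ∑ i, r i * |pd i u x| := by
    rw [← sum_pd_eq, ← Finset.sum_add_distrib]
    refine Finset.sum_congr rfl fun i _ => ?_
    have h5 : (X + d - x) i = X i + r i * (SignType.sign (pd i u x) : ℝ) - x i := rfl
    have h6 : (SignType.sign (pd i u x) : ℝ) * pd i u x = |pd i u x| := sign_mul_self _
    rw [h5, ← h6]
    ring
  rw [h4] at h3
  have h7 : u (X + d) ≤ zX + -r0 := h2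
  rw [Lam]
  linarith

/-- The integral of `(r0 + ∑ r_i |p_i|)^(-(n+1))`. -/
theorem exists_lintegral_le (n : ℕ) : ∃ C : ℝ, 0 < C ∧ ∀ (r0 : ℝ) (r : Fin n → ℝ), 0 < r0 →
    (∀ i, 0 < r i) →
    ∫⁻ p : En n, ENNReal.ofReal ((r0 + ∑ i, r i * |p i|) ^ (-((n : ℝ) + 1))) ≤
      ENNReal.ofReal (C / (r0 * ∏ i, r i)) := by
  let Φ : En n → ℝ≥0∞ := fun q => ENNReal.ofReal ((1 + ‖q‖) ^ (-((n : ℝ) + 1)))
  have hΦm : Measurable Φ := by
    refine ENNReal.measurable_ofReal.comp ?_
    exact (measurable_const.add measurable_norm).pow_const _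
  have hfin : ∫⁻ q, Φ q < ⊤ :=
    finite_integral_one_add_norm (by rw [finrank_euclideanSpace_fin]; linarith)
  refine ⟨(∫⁻ q, Φ q).toReal + 1, by positivity, fun r0 r hr0 hr => ?_⟩
  let S : En n →ₗ[ℝ] En n := Matrix.toEuclideanLin (Matrix.diagonal fun i => r i / r0)
  have hSi : ∀ p i, S p i = r i / r0 * p i := by
    intro p i
    simp [S, Matrix.toLpLin_apply, Matrix.mulVec_diagonal]
  have hdet : LinearMap.det S = ∏ i, (r i / r0) := by
    rw [← Matrix.det_diagonal]
    exact LinearMap.det_toLin (PiLp.basisFun 2 ℝ (Fin n)) _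
  have hprod : 0 < ∏ i, r i := Finset.prod_pos fun i _ => hr i
  have hdet' : LinearMap.det S = (∏ i, r i) / r0 ^ n := by
    rw [hdet, Finset.prod_div_distrib, Finset.prod_const, Finset.card_univ, Fintype.card_fin]
  have hdetpos : 0 < LinearMap.det S := by rw [hdet']; positivity
  have hle : ∀ p : En n, ENNReal.ofReal ((r0 + ∑ i, r i * |p i|) ^ (-((n : ℝ) + 1))) ≤
      ENNReal.ofReal (r0 ^ (-((n : ℝ) + 1))) * Φ (S p) := by
    intro p
    rw [← ENNReal.ofReal_mul (by positivity), ← Real.mul_rpow hr0.le (by positivity)]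
    refine ENNReal.ofReal_le_ofReal ?_
    refine Real.rpow_le_rpow_of_nonpos (by positivity) ?_ (by linarith [n.cast_nonneg (α := ℝ)])
    have h1 := norm_le_sum_abs (S p)
    have h2 : ∑ i, |S p i| = (∑ i, r i * |p i|) / r0 := by
      rw [Finset.sum_div]
      refine Finset.sum_congr rfl fun i _ => ?_
      rw [hSi, abs_mul, abs_of_pos (div_pos (hr i) hr0)]
      ring
    rw [h2, le_div_iff₀ hr0] at h1
    linarith
  have hSm : Measurable S := (LinearMap.continuous_of_finiteDimensional S).measurable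
  calc ∫⁻ p : En n, ENNReal.ofReal ((r0 + ∑ i, r i * |p i|) ^ (-((n : ℝ) + 1)))
      ≤ ∫⁻ p : En n, ENNReal.ofReal (r0 ^ (-((n : ℝ) + 1))) * Φ (S p) := lintegral_mono hle
    _ = ENNReal.ofReal (r0 ^ (-((n : ℝ) + 1))) * ∫⁻ p, Φ (S p) :=
        lintegral_const_mul _ (hΦm.comp hSm)
    _ = ENNReal.ofReal (r0 ^ (-((n : ℝ) + 1))) *
          (ENNReal.ofReal |(LinearMap.det S)⁻¹| * ∫⁻ q, Φ q) := by
        rw [← lintegral_map hΦm hSm,
          Measure.map_linearMap_addHaar_eq_smul_addHaar volume hdetpos.ne', lintegral_smul_measure,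
          smul_eq_mul]
    _ = ENNReal.ofReal (1 / (r0 * ∏ i, r i)) * ∫⁻ q, Φ q := by
        rw [← mul_assoc, ← ENNReal.ofReal_mul (by positivity), abs_of_pos (inv_pos.2 hdetpos), hdet']
        congr 2
        rw [Real.rpow_neg hr0.le, Real.rpow_add_one hr0.ne', Real.rpow_natCast]
        field_simp
    _ ≤ ENNReal.ofReal (1 / (r0 * ∏ i, r i)) *
          ENNReal.ofReal ((∫⁻ q, Φ q).toReal + 1) := by
        gcongr
        rw [ENNReal.ofReal_add ENNReal.toReal_nonneg zero_le_one, ENNReal.ofReal_toReal hfin.ne]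
        exact le_self_add
    _ = ENNReal.ofReal (((∫⁻ q, Φ q).toReal + 1) / (r0 * ∏ i, r i)) := by
        rw [← ENNReal.ofReal_mul (by positivity)]
        congr 1
        ring

/-- B2. -/
theorem gradImage (n : ℕ) : Stmt_gradImage n := by
  obtain ⟨C, hC, hF⟩ := exists_lintegral_le n
  refine ⟨C, hC, fun Ω u h hcv X zX r0 r hr0 hr hbox G hG hGΩ => ?_⟩
  refine le_trans ?_ (hF r0 r hr0 hr)
  have hcd : ∀ x ∈ Ω, ContDiffAt ℝ 2 u x := fun x hx =>
    ((h.sm x hx).contDiffAt (h.op.mem_nhds hx)).of_le (by norm_cast)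
  have hinj : InjOn (H402.grad u) G := by
    intro x hx y hy hxy
    refine Vale.Agent.P252.fderiv_injOn h.op hcv h.sm h.pos (hGΩ hx) (hGΩ hy) ?_
    ext v
    rw [← sum_pd_eq, ← sum_pd_eq]
    refine Finset.sum_congr rfl fun i _ => ?_
    have : (H402.grad u x) i = (H402.grad u y) i := by rw [hxy]
    have h1 : pd i u x = pd i u y := this
    rw [h1]
  have himg := lintegral_image_eq_lintegral_abs_det_fderiv_mul (volume : Measure (En n)) hG
    (f := H402.grad u)
    (f' := fun x => (Matrix.toEuclideanLin (hess u x).transpose).toContinuousLinearMap)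
    (fun x hx => (H402.hasFDerivAt_grad (hcd x (hGΩ hx))).hasFDerivWithinAt) hinj
    (fun p => ENNReal.ofReal ((r0 + ∑ i, r i * |p i|) ^ (-((n : ℝ) + 1))))
  refine le_trans ?_ (setLIntegral_le_lintegral (H402.grad u '' G) _)
  rw [himg]
  refine setLIntegral_mono' hG fun x hx => ?_
  have hdpos : 0 < (hess u x).det := (h.pos x (hGΩ hx)).det_pos
  rw [H402.det_toEuclideanLin, Matrix.det_transpose, abs_of_pos hdpos,
    ← ENNReal.ofReal_mul hdpos.le]
  refine ENNReal.ofReal_le_ofReal ?_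
  refine mul_le_mul_of_nonneg_left ?_ hdpos.le
  refine Real.rpow_le_rpow_of_nonpos ?_ (Lam_ge h hcv hr0 hr hbox (hGΩ hx))
    (by linarith [n.cast_nonneg (α := ℝ)])
  have : 0 ≤ ∑ i, r i * |(H402.grad u x) i| :=
    Finset.sum_nonneg fun i _ => mul_nonneg (hr i).le (abs_nonneg _)
  linarith

end Vale.Agent.P252.R
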