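import Vale.Agent.P252.R.Spec
import Vale.Agent.P252.R.Common
import Vale.Agent.P252.H474.Trans
import Vale.Agent.P252.H474.Normalise
import Vale.Agent.P252.R.Alpha

/-!
# D6c: the determinant is pinched between positive constants
-/

open scoped ContDiff Topology ENNReal
open MeasureTheory Set Filter

namespace Vale.Agent.P252.R

variable {n : ℕ}

/-- the open standard simplex -/
def simp (n : ℕ) : Set (En n) := {y | (∀ i, 0 < y i) ∧ ∑ i, y i < 1}

lemma isOpen_simp (n : ℕ) : IsOpen (simp n) := by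
  have h1 : simp n = (⋂ i, {y : En n | 0 < y i}) ∩ {y | ∑ i, y i < 1} := by
    ext y; simp [simp]
  rw [h1]
  refine (isOpen_iInter_of_finite fun i => ?_).inter ?_
  · exact isOpen_lt continuous_const (by fun_prop)
  · exact isOpen_lt (by fun_prop) continuous_const

lemma simp_nonempty (n : ℕ) : (simp n).Nonempty := by
  refine ⟨WithLp.toLp 2 fun _ => 1 / ((n : ℝ) + 1), fun i => ?_, ?_⟩
  · show 0 < 1 / ((n : ℝ) + 1)
    positivity
  · show ∑ _i : Fin n, 1 / ((n : ℝ) + 1) < 1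
    rw [Finset.sum_const, Finset.card_univ, Fintype.card_fin, nsmul_eq_mul, mul_one_div,
      div_lt_one (by positivity)]
    linarith

lemma simp_subset {Ω : Set (En n)} {v : En n → ℝ} (h : NSec Ω v) :
    simp n ⊆ {y | y ∈ Ω ∧ v y < 1} := by
  rintro y ⟨hy0, hy1⟩
  have hcv : ConvexOn ℝ Ω v := (strictConvexOn_of_hess h.op h.cv h.sm h.pos).convexOn
  let w : Option (Fin n) → ℝ := fun o => o.elim (1 - ∑ i, y i) fun i => y i
  let p : Option (Fin n) → En n := fun o => o.elim 0 fun i => EuclideanSpace.single i 1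
  have hw0 : ∀ o ∈ (Finset.univ : Finset (Option (Fin n))), 0 ≤ w o := by
    rintro (_ | i) -
    · exact (sub_pos.2 hy1).le
    · exact (hy0 i).le
  have hw1 : ∑ o, w o = 1 := by
    rw [Fintype.sum_option]
    show (1 - ∑ i, y i) + ∑ i, y i = 1
    ring
  have hp : ∀ o ∈ (Finset.univ : Finset (Option (Fin n))), p o ∈ Ω := by
    rintro (_ | i) -
    · exact h.zero_mem
    · exact (h.simplex i).1
  have hy : ∑ o, w o • p o = y := by
    rw [Fintype.sum_option]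
    show (1 - ∑ i, y i) • (0 : En n) + ∑ i, y i • EuclideanSpace.single i (1 : ℝ) = y
    rw [smul_zero, zero_add]
    exact (Vale.Agent.P252.H474.single_sum y).symm
  have h1 := hcv.map_sum_le hw0 hw1 hp
  have h2 := h.cv.sum_mem hw0 hw1 hp
  rw [hy] at h1 h2
  refine ⟨h2, h1.trans_lt ?_⟩
  rw [Fintype.sum_option]
  show (1 - ∑ i, y i) • v 0 + ∑ i, y i • v (EuclideanSpace.single i 1) < 1
  rw [h.u_zero, smul_zero, zero_add]
  refine lt_of_le_of_lt (Finset.sum_le_sum fun i _ => ?_) hy1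
  rw [smul_eq_mul]
  exact mul_le_of_le_one_right (hy0 i).le (h.simplex i).2

/-- Uniform bounds of the volume of a normalised section. -/
lemma nsec_volume (n : ℕ) : ∃ κ₁ κ₂ : ℝ, 0 < κ₁ ∧ 0 < κ₂ ∧ ∀ (Ω : Set (En n)) (v : En n → ℝ),
    NSec Ω v → κ₁ ≤ (volume {y | y ∈ Ω ∧ v y < 1}).toReal ∧
      (volume {y | y ∈ Ω ∧ v y < 1}).toReal ≤ κ₂ := by
  have hbfin : volume (Metric.closedBall (0 : En n) ((n : ℝ) + 1)) ≠ ⊤ :=
    measure_closedBall_lt_top.ne
  have hsub : ∀ (Ω : Set (En n)) (v : En n → ℝ), NSec Ω v →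
      {y | y ∈ Ω ∧ v y < 1} ⊆ Metric.closedBall (0 : En n) ((n : ℝ) + 1) := by
    intro Ω v h y hy
    rw [mem_closedBall_zero_iff]
    exact norm_le_of_abs_le_one (h.box y hy.1 hy.2.le)
  have hsb : simp n ⊆ Metric.closedBall (0 : En n) ((n : ℝ) + 1) := by
    rintro y ⟨hy0, hy1⟩
    rw [mem_closedBall_zero_iff]
    refine norm_le_of_abs_le_one fun i => ?_
    rw [abs_of_pos (hy0 i)]
    exact (Finset.single_le_sum (f := fun i => y i) (fun j _ => (hy0 j).le)
      (Finset.mem_univ i)).trans hy1.le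
  refine ⟨(volume (simp n)).toReal,
    (volume (Metric.closedBall (0 : En n) ((n : ℝ) + 1))).toReal + 1, ?_, by positivity, ?_⟩
  · exact ENNReal.toReal_pos ((isOpen_simp n).measure_pos volume (simp_nonempty n)).ne'
      (ne_top_of_le_ne_top hbfin (measure_mono hsb))
  · intro Ω v h
    constructor
    · exact ENNReal.toReal_mono (ne_top_of_le_ne_top hbfin (measure_mono (hsub Ω v h)))
        (measure_mono (simp_subset h))
    · refine (ENNReal.toReal_mono hbfin (measure_mono (hsub Ω v h))).trans ?_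
      linarith

/-- `D(a) |S_t(a)|² ≈ t^n`. -/
lemma det_volume (hn : 1 ≤ n) (hN : Stmt_normalise n) {c C : ℝ} (hc : 0 < c) (hC : 0 < C)
    (hds : ∀ (Ω : Set (En n)) (u : En n → ℝ), NSec Ω u → c ≤ dt u 0 ∧ dt u 0 ≤ C) :
    ∃ c₁ C₁ : ℝ, 0 < c₁ ∧ 0 < C₁ ∧ ∀ (Ω : Set (En n)) (u : En n → ℝ), AMC Ω u → ∀ a ∈ Ω,
      ∀ t : ℝ, 0 < t → c₁ * t ^ n ≤ dt u a * (volume (Sec Ω u a t)).toReal ^ 2 ∧
        dt u a * (volume (Sec Ω u a t)).toReal ^ 2 ≤ C₁ * t ^ n := by
  obtain ⟨κ₁, κ₂, hκ₁, hκ₂, hκ⟩ := nsec_volume n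
  refine ⟨c * κ₁ ^ 2, C * κ₂ ^ 2, by positivity, by positivity, fun Ω u h a ha t ht => ?_⟩
  obtain ⟨T, hT⟩ := hN hn Ω u h a ha t ht
  obtain ⟨h1, h2⟩ := hds _ _ hT
  obtain ⟨h3, h4⟩ := hκ _ _ hT
  have hΩ : T 0 + a ∈ Ω := by simpa using ha
  have h5 : dt (fun x => brg u a (a + T x) / t) 0 = t⁻¹ ^ n * (mT T).det ^ 2 * dt u a := by
    rw [brg_div_eq_tr, dt_tr h.op h.toSC.two hΩ]
    simp
  have hset : {x | T x + a ∈ Sec Ω u a t} =
      {y | y ∈ {x | a + T x ∈ Ω} ∧ brg u a (a + T y) / t < 1} := by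
    ext x
    simp only [Sec, mem_ofPred_eq, add_comm (T x) a, div_lt_one ht]
  have h6 := volume_tr T a (Sec Ω u a t)
  rw [hset] at h6
  set Y := {y | y ∈ {x | a + T x ∈ Ω} ∧ brg u a (a + T y) / t < 1} with hY
  have hdet : 0 < |(mT T).det| := abs_pos.2 (isUnit_det_mT T).ne_zero
  have h7 : (volume (Sec Ω u a t)).toReal = |(mT T).det| * (volume Y).toReal := by
    rw [h6, ENNReal.toReal_mul, ENNReal.toReal_ofReal (inv_nonneg.2 hdet.le), ← mul_assoc,
      mul_inv_cancel₀ hdet.ne', one_mul]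
  have h8 : dt u a * (volume (Sec Ω u a t)).toReal ^ 2 =
      t ^ n * dt (fun x => brg u a (a + T x) / t) 0 * (volume Y).toReal ^ 2 := by
    rw [h7, h5, mul_pow, sq_abs, inv_pow]
    field_simp
  rw [h8]
  have h9 : 0 ≤ dt (fun x => brg u a (a + T x) / t) 0 := hc.le.trans h1
  constructor
  · calc c * κ₁ ^ 2 * t ^ n = t ^ n * c * κ₁ ^ 2 := by ring
      _ ≤ t ^ n * dt (fun x => brg u a (a + T x) / t) 0 * (volume Y).toReal ^ 2 := by
        refine mul_le_mul ?_ (by gcongr) (by positivity) (by positivity)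
        gcongr
  · calc t ^ n * dt (fun x => brg u a (a + T x) / t) 0 * (volume Y).toReal ^ 2
        ≤ t ^ n * C * κ₂ ^ 2 := by gcongr
      _ = C * κ₂ ^ 2 * t ^ n := by ring

/-- D6c. -/
theorem pinch (n : ℕ) (hN : Stmt_normalise n) (hD : Stmt_detScale n) (hE : Stmt_engulf n)
    (hS : Stmt_secCompact n) : Stmt_pinch n := by
  intro hno Ω u h
  rcases Nat.eq_zero_or_pos n with hn | hn
  · subst hn
    refine ⟨1, 1, one_pos, one_pos, fun x _ => ?_⟩
    rw [dt, Matrix.det_isEmpty]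
    exact ⟨le_rfl, le_rfl⟩
  obtain ⟨c, C, hc, hC, hds⟩ := hD hno
  obtain ⟨θ, hθ, hθ4, hen⟩ := hE hno
  obtain ⟨c₁, C₁, hc₁, hC₁, hdv⟩ := det_volume hn hN hc hC hds
  have hsc : SC Ω u := h.toSC
  set K : ℝ := C₁ * (5 / 4) ^ n / c₁ with hK
  have hK0 : 0 < K := by positivity
  have hcmp : ∀ a ∈ Ω, ∀ b ∈ Ω, dt u b ≤ K * dt u a := by
    intro a ha b hb
    set t : ℝ := 1 + brg u a b / θ with ht
    have hb0 := brg_nonneg hsc h.cv ha hb
    have ht0 : 0 < t := by positivity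
    have hab : brg u a b ≤ θ * t := by
      rw [ht, mul_add, mul_div_cancel₀ _ hθ.ne']
      linarith
    have h1 := engulf_subset hsc h.cv (hen Ω u h) ha hb ht0 hab
    have hfin : volume (Sec Ω u b (5 / 4 * t)) ≠ ⊤ :=
      ne_top_of_le_ne_top (hS Ω u hsc h.cv h.cl b hb (5 / 4 * t)).measure_lt_top.ne
        (measure_mono fun x hx => ⟨hx.1, hx.2.le⟩)
    have h2 : (volume (Sec Ω u a t)).toReal ≤ (volume (Sec Ω u b (5 / 4 * t))).toReal :=
      ENNReal.toReal_mono hfin (measure_mono h1)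
    have h3 := (hdv Ω u h a ha t ht0).1
    have h4 := (hdv Ω u h b hb (5 / 4 * t) (by positivity)).2
    have hDa : 0 < dt u a := hsc.dt_pos ha
    have hDb : 0 < dt u b := hsc.dt_pos hb
    set V := (volume (Sec Ω u a t)).toReal with hV
    have hV0 : 0 ≤ V := ENNReal.toReal_nonneg
    have hV2 : 0 < V ^ 2 := by
      have : 0 < dt u a * V ^ 2 := lt_of_lt_of_le (by positivity) h3
      exact (pos_iff_pos_of_mul_pos this).1 hDa
    have h5 : dt u b * V ^ 2 ≤ C₁ * (5 / 4 * t) ^ n := by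
      refine le_trans ?_ h4
      gcongr
    have h6 : dt u b * V ^ 2 ≤ K * dt u a * V ^ 2 := by
      calc dt u b * V ^ 2 ≤ C₁ * (5 / 4 * t) ^ n := h5
        _ = K * (c₁ * t ^ n) := by rw [hK, mul_pow]; field_simp
        _ ≤ K * (dt u a * V ^ 2) := by gcongr
        _ = K * dt u a * V ^ 2 := by ring
    exact le_of_mul_le_mul_right h6 hV2
  obtain ⟨a, ha⟩ := h.ne
  have hDa : 0 < dt u a := hsc.dt_pos ha
  refine ⟨dt u a / K, K * dt u a, by positivity, by positivity, fun x hx => ⟨?_, hcmp a ha x hx⟩⟩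
  rw [div_le_iff₀ hK0, mul_comm]
  exact hcmp x hx a ha

end Vale.Agent.P252.R
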